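import Mathlib

/-!
# P171 moonshot, step (H5) in abstract form: from the Lebowitz-Penrose claim to the derivative bound

Pure real analysis; no project definitions. In the application (lp_deriv of
Vale/Agent/H96/P171/LP.lean): f m = Fp m t, G n m = Fp m t''_n (t''_n = the coordinates
k < n of t divided by pi_n, zero beyond), Q m = Fp m (2 t), b n = 1 / pi_n - 1,
l n = rho n, tau n = sum_{k >= n} t k, Phi n sig = Fp mu (addAt t n sig), and hclaim is the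
Lebowitz-Penrose claim (H4) with s = (21/2) (sig + tau n).

Sketch of the proof. Put s = (21/2) (sig + tau n), u_j = 2 s j / l^3, so that
s j^2 / l^3 = l^3 u_j^2 / (4 s), and kap = ((l + 1) / l)^3 (tends to 1, at most 8).
Fix eps1 > 0 with (21/2) ((2 |d'| + 1) eps1) < eps / 2 and, from hd, del in (0, 1] with
f (mu + u) <= f mu + (d' + eps1) u for 0 <= u <= del.
* Terms with u_j <= del: by hG and hQ the exponent is at most
  l^3 (kap (f mu + b n M2) + kap (d' + eps1) u - u^2 / (4 s))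
     <= l^3 (kap (f mu + b n M2) + s kap^2 (d' + eps1)^2) =: l^3 Estar
  (a u - u^2 / (4 s) <= s a^2). There are at most l^3 / (2 s) + 1 such j.
* Terms with u_j > del: by hgrow, with c1 = |mu| + |C|, (c1 + u)^2 <= 2 c1^2 + 2 u^2,
  (l + 1)^3 <= 8 l^3 and A >= 672 >= 32 s (for sig <= 1, tau n <= sig, so s <= 21), the
  exponent is at most l^3 (c0 - u^2 / (8 s)), c0 = 8 + 4 c1^2 / A; if sig <= del^2 / (336 c0)
  then c0 <= u^2 / (16 s) and the exponent is at most - l^3 u^2 / (16 s) = - s j^2 / (4 l^3);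
  these terms sum to at most 1 + 4 l^3 / s (exp (- c j^2) <= exp (- c j), geometric series,
  1 / (1 - exp (- c)) <= 1 + 1 / c).
* Hence the series is summable with sum at most (2 + 5 l^3 / s) exp (l^3 Estar) (Estar >= 0
  because f mu >= 0, M2 >= 0), and by hclaim
  Phi n sig <= Estar + l^-3 log (2 + l^3 / sig).
* For fixed sig and n -> infinity: kap -> 1, b n -> 0, s -> (21/2) sig, the last term
  tends to 0, so the right side tends to f mu + (21/2) sig (d' + eps1)^2 <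
  f mu + sig ((21/2) d'^2 + eps).
-/

open Filter Topology

namespace Vale.Agent.Lead.P171

/-- Near terms: the exponent is at most `L ^ 3 * Estar`. -/
theorem lp5_near (f : ℝ → ℝ) (μ d1 δ : ℝ) (hδ1 : δ ≤ 1)
    (hf : ∀ u, 0 ≤ u → u ≤ δ → f (μ + u) ≤ f μ + d1 * u)
    (g Q : ℝ → ℝ) (M2 β : ℝ) (hQ : ∀ m, μ ≤ m → m ≤ μ + 1 → Q m ≤ M2) (hβ : 0 ≤ β)
    (hg : ∀ m, g m ≤ f m + β * Q m)
    (L s : ℝ) (hL : 1 ≤ L) (hs : 0 < s) (j : ℕ)
    (hu : 2 * s * (j : ℝ) / L ^ 3 ≤ δ) :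
    -s * (j : ℝ) ^ 2 / L ^ 3 + (L + 1) ^ 3 * g (μ + 2 * s * (j : ℝ) / L ^ 3)
      ≤ L ^ 3 * ((1 + L⁻¹) ^ 3 * (f μ + β * M2) + s * ((1 + L⁻¹) ^ 3) ^ 2 * d1 ^ 2) := by
  have hL0 : 0 < L := by linarith
  have hT : 0 < L ^ 3 := by positivity
  have hκ : (L + 1) ^ 3 = (1 + L⁻¹) ^ 3 * L ^ 3 := by
    field_simp
  have hu0 : 0 ≤ 2 * s * (j : ℝ) / L ^ 3 := by positivity
  have h1 : g (μ + 2 * s * (j : ℝ) / L ^ 3)
      ≤ f μ + d1 * (2 * s * (j : ℝ) / L ^ 3) + β * M2 := by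
    have h2 := hg (μ + 2 * s * (j : ℝ) / L ^ 3)
    have h3 := hf _ hu0 hu
    have h4 := hQ (μ + 2 * s * (j : ℝ) / L ^ 3) (by linarith) (by linarith)
    have h5 : β * Q (μ + 2 * s * (j : ℝ) / L ^ 3) ≤ β * M2 := mul_le_mul_of_nonneg_left h4 hβ
    linarith
  have h6 : (L + 1) ^ 3 * g (μ + 2 * s * (j : ℝ) / L ^ 3)
      ≤ (L + 1) ^ 3 * (f μ + d1 * (2 * s * (j : ℝ) / L ^ 3) + β * M2) :=
    mul_le_mul_of_nonneg_left h1 (by positivity)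
  rw [hκ] at h6 ⊢
  generalize (1 + L⁻¹) ^ 3 = κ at h6 ⊢
  have h7 : -s * (j : ℝ) ^ 2 / L ^ 3 + κ * L ^ 3 * (d1 * (2 * s * (j : ℝ) / L ^ 3))
      ≤ L ^ 3 * (s * κ ^ 2 * d1 ^ 2) := by
    have h8 : L ^ 3 * (s * κ ^ 2 * d1 ^ 2)
        - (-s * (j : ℝ) ^ 2 / L ^ 3 + κ * L ^ 3 * (d1 * (2 * s * (j : ℝ) / L ^ 3)))
        = s / L ^ 3 * (L ^ 3 * κ * d1 - j) ^ 2 := by
      field_simp; ring
    have h9 : 0 ≤ s / L ^ 3 * (L ^ 3 * κ * d1 - j) ^ 2 := by positivity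
    linarith
  linarith

/-- Far terms: the exponent is at most `- (s / (4 L ^ 3)) j`. -/
theorem lp5_far (μ δ : ℝ) (hδ : 0 < δ)
    (g : ℝ → ℝ) (A C : ℝ) (hA : 672 ≤ A)
    (hgrow : ∀ m, g m ≤ 1 + (max (m + C) 0) ^ 2 / (4 * A))
    (L s : ℝ) (hL : 1 ≤ L) (hs : 0 < s) (hs21 : s ≤ 21)
    (hsδ : 16 * s * (8 + 4 * (|μ| + |C|) ^ 2 / A) ≤ δ ^ 2) (j : ℕ)
    (hu : δ < 2 * s * (j : ℝ) / L ^ 3) :
    -s * (j : ℝ) ^ 2 / L ^ 3 + (L + 1) ^ 3 * g (μ + 2 * s * (j : ℝ) / L ^ 3)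
      ≤ -(s / (4 * L ^ 3)) * (j : ℝ) := by
  have hL0 : 0 < L := by linarith
  have hT : 0 < L ^ 3 := by positivity
  have hA0 : 0 < A := by linarith
  have hw : s * (j : ℝ) ^ 2 / (4 * L ^ 3)
      = L ^ 3 * (2 * s * (j : ℝ) / L ^ 3) ^ 2 / (16 * s) := by
    field_simp; ring
  generalize 2 * s * (j : ℝ) / L ^ 3 = u at hu hw ⊢
  have hu0 : 0 < u := by linarith
  have hc1' : 0 ≤ |μ| + |C| := by positivity
  have hmax : max (μ + u + C) 0 ≤ |μ| + |C| + u := by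
    apply max_le
    · have := le_abs_self μ; have := le_abs_self C; linarith
    · linarith
  have hmax0 : 0 ≤ max (μ + u + C) 0 := le_max_right _ _
  have hsq : (max (μ + u + C) 0) ^ 2 ≤ 2 * (|μ| + |C|) ^ 2 + 2 * u ^ 2 := by
    have h0 : (max (μ + u + C) 0) ^ 2 ≤ (|μ| + |C| + u) ^ 2 := pow_le_pow_left₀ hmax0 hmax 2
    nlinarith [sq_nonneg (|μ| + |C| - u)]
  have h1 : g (μ + u) ≤ 1 + (2 * (|μ| + |C|) ^ 2 + 2 * u ^ 2) / (4 * A) := by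
    have h2 := hgrow (μ + u)
    have h3 : (max (μ + u + C) 0) ^ 2 / (4 * A)
        ≤ (2 * (|μ| + |C|) ^ 2 + 2 * u ^ 2) / (4 * A) :=
      div_le_div_of_nonneg_right hsq (by positivity)
    linarith
  have hX0 : 0 ≤ 1 + (2 * (|μ| + |C|) ^ 2 + 2 * u ^ 2) / (4 * A) := by positivity
  have h8 : (L + 1) ^ 3 ≤ 8 * L ^ 3 := by
    have h0 : L + 1 ≤ 2 * L := by linarith
    calc (L + 1) ^ 3 ≤ (2 * L) ^ 3 := pow_le_pow_left₀ (by linarith) h0 3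
      _ = 8 * L ^ 3 := by ring
  have h4 : (L + 1) ^ 3 * g (μ + u)
      ≤ 8 * L ^ 3 * (1 + (2 * (|μ| + |C|) ^ 2 + 2 * u ^ 2) / (4 * A)) :=
    calc (L + 1) ^ 3 * g (μ + u)
        ≤ (L + 1) ^ 3 * (1 + (2 * (|μ| + |C|) ^ 2 + 2 * u ^ 2) / (4 * A)) :=
          mul_le_mul_of_nonneg_left h1 (by positivity)
      _ ≤ 8 * L ^ 3 * (1 + (2 * (|μ| + |C|) ^ 2 + 2 * u ^ 2) / (4 * A)) :=
          mul_le_mul_of_nonneg_right h8 hX0
  have h5 : 8 * L ^ 3 * (1 + (2 * (|μ| + |C|) ^ 2 + 2 * u ^ 2) / (4 * A))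
      = L ^ 3 * (8 + 4 * (|μ| + |C|) ^ 2 / A) + L ^ 3 * (4 * u ^ 2 / A) := by
    field_simp; ring
  -- the growth constant is dominated
  have h6 : 8 + 4 * (|μ| + |C|) ^ 2 / A ≤ u ^ 2 / (16 * s) := by
    rw [le_div_iff₀ (by positivity)]
    have h0 : δ ^ 2 ≤ u ^ 2 := pow_le_pow_left₀ hδ.le hu.le 2
    linarith
  have h7 : 4 * u ^ 2 / A ≤ 2 * (u ^ 2 / (16 * s)) := by
    have h0 : 4 * u ^ 2 / A ≤ 4 * u ^ 2 / (32 * s) :=
      div_le_div_of_nonneg_left (by positivity) (by positivity) (by linarith)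
    have h00 : 4 * u ^ 2 / (32 * s) = 2 * (u ^ 2 / (16 * s)) := by
      field_simp; ring
    linarith
  have h9 : L ^ 3 * (8 + 4 * (|μ| + |C|) ^ 2 / A) ≤ L ^ 3 * (u ^ 2 / (16 * s)) :=
    mul_le_mul_of_nonneg_left h6 hT.le
  have h10 : L ^ 3 * (4 * u ^ 2 / A) ≤ L ^ 3 * (2 * (u ^ 2 / (16 * s))) :=
    mul_le_mul_of_nonneg_left h7 hT.le
  have h11 : L ^ 3 * (u ^ 2 / (16 * s)) = s * (j : ℝ) ^ 2 / (4 * L ^ 3) := by
    rw [hw]; ring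
  have h12 : -s * (j : ℝ) ^ 2 / L ^ 3 = -4 * (s * (j : ℝ) ^ 2 / (4 * L ^ 3)) := by
    field_simp
  have h13 : (j : ℝ) ≤ (j : ℝ) ^ 2 := by
    have h0 : j ≤ j ^ 2 := Nat.le_self_pow (by norm_num) j
    exact_mod_cast h0
  have h14 : -(s / (4 * L ^ 3)) * (j : ℝ) = -(s * (j : ℝ) / (4 * L ^ 3)) := by ring
  have h15 : s * (j : ℝ) / (4 * L ^ 3) ≤ s * (j : ℝ) ^ 2 / (4 * L ^ 3) :=
    div_le_div_of_nonneg_right (mul_le_mul_of_nonneg_left h13 hs.le) (by positivity)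
  rw [h14, h12]
  linarith

/-- The sum of exponentials with a bounded block and a geometrically decaying tail. -/
theorem lp5_sum (e : ℕ → ℝ) (K E c : ℝ) (hK : 0 ≤ K) (hc : 0 < c)
    (hnear : ∀ j : ℕ, (j : ℝ) ≤ K → e j ≤ E)
    (hfar : ∀ j : ℕ, K < (j : ℝ) → e j ≤ -c * (j : ℝ)) :
    Summable (fun j => Real.exp (e j)) ∧
      ∑' j, Real.exp (e j) ≤ (K + 1) * Real.exp E + (1 + 1 / c) := by
  have hr0 : 0 ≤ Real.exp (-c) := (Real.exp_pos _).le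
  have hr1 : Real.exp (-c) < 1 := Real.exp_lt_one_iff.2 (by linarith)
  have hgeo : Summable (fun j : ℕ => Real.exp (-c) ^ j) := summable_geometric_of_lt_one hr0 hr1
  have hgeo_sum : ∑' j : ℕ, Real.exp (-c) ^ j = (1 - Real.exp (-c))⁻¹ :=
    tsum_geometric_of_lt_one hr0 hr1
  have hgeo_le : (1 - Real.exp (-c))⁻¹ ≤ 1 + 1 / c := by
    have h1 : Real.exp (-c) ≤ 1 / (1 + c) := by
      rw [Real.exp_neg, ← one_div]
      exact one_div_le_one_div_of_le (by linarith) (by linarith [Real.add_one_le_exp c])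
    have h2 : c / (1 + c) ≤ 1 - Real.exp (-c) := by
      have h3 : c / (1 + c) = 1 - 1 / (1 + c) := by
        field_simp; ring
      linarith
    have h4 : 0 < c / (1 + c) := by positivity
    calc (1 - Real.exp (-c))⁻¹ ≤ (c / (1 + c))⁻¹ := inv_anti₀ h4 h2
      _ = 1 + 1 / c := by field_simp; ring
  have hzero : ∀ j : ℕ, j ∉ Finset.range (⌊K⌋₊ + 1) →
      (if (j : ℝ) ≤ K then Real.exp E else 0) = 0 := by
    intro j hj
    rw [Finset.mem_range, not_lt] at hj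
    have h1 : K < (j : ℝ) := by
      have h2 : K < (⌊K⌋₊ : ℝ) + 1 := Nat.lt_floor_add_one K
      have h3 : ((⌊K⌋₊ + 1 : ℕ) : ℝ) ≤ (j : ℝ) := by exact_mod_cast hj
      push_cast at h3
      linarith
    rw [if_neg (not_le.2 h1)]
  have hind : Summable (fun j : ℕ => if (j : ℝ) ≤ K then Real.exp E else 0) :=
    summable_of_ne_finset_zero hzero
  have hind_sum : ∑' j : ℕ, (if (j : ℝ) ≤ K then Real.exp E else 0)
      ≤ (K + 1) * Real.exp E := by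
    rw [tsum_eq_sum hzero]
    calc ∑ j ∈ Finset.range (⌊K⌋₊ + 1), (if (j : ℝ) ≤ K then Real.exp E else 0)
        ≤ ∑ _j ∈ Finset.range (⌊K⌋₊ + 1), Real.exp E := by
          apply Finset.sum_le_sum
          intro j _
          split_ifs
          · exact le_rfl
          · exact (Real.exp_pos _).le
      _ = ((⌊K⌋₊ : ℝ) + 1) * Real.exp E := by
          rw [Finset.sum_const, Finset.card_range, nsmul_eq_mul]; push_cast; ring
      _ ≤ (K + 1) * Real.exp E := by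
          apply mul_le_mul_of_nonneg_right _ (Real.exp_pos _).le
          linarith [Nat.floor_le hK]
  have hterm : ∀ j : ℕ, Real.exp (e j)
      ≤ (if (j : ℝ) ≤ K then Real.exp E else 0) + Real.exp (-c) ^ j := by
    intro j
    by_cases hj : (j : ℝ) ≤ K
    · rw [if_pos hj]
      have h1 : Real.exp (e j) ≤ Real.exp E := Real.exp_le_exp.2 (hnear j hj)
      have h2 : 0 ≤ Real.exp (-c) ^ j := pow_nonneg hr0 j
      linarith
    · rw [if_neg hj, zero_add]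
      have h1 : Real.exp (e j) ≤ Real.exp (-c * (j : ℝ)) :=
        Real.exp_le_exp.2 (hfar j (not_le.1 hj))
      have h2 : Real.exp (-c * (j : ℝ)) = Real.exp (-c) ^ j := by
        rw [mul_comm, Real.exp_nat_mul]
      linarith
  have hsum : Summable (fun j : ℕ =>
      (if (j : ℝ) ≤ K then Real.exp E else 0) + Real.exp (-c) ^ j) := hind.add hgeo
  have hS : Summable (fun j => Real.exp (e j)) :=
    Summable.of_nonneg_of_le (fun j => (Real.exp_pos _).le) hterm hsum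
  refine ⟨hS, ?_⟩
  calc ∑' j, Real.exp (e j)
      ≤ ∑' j : ℕ, ((if (j : ℝ) ≤ K then Real.exp E else 0) + Real.exp (-c) ^ j) :=
        hS.tsum_le_tsum hterm hsum
    _ = ∑' j : ℕ, (if (j : ℝ) ≤ K then Real.exp E else 0) + ∑' j : ℕ, Real.exp (-c) ^ j :=
        hind.tsum_add hgeo
    _ ≤ (K + 1) * Real.exp E + (1 + 1 / c) := by
        rw [hgeo_sum]
        exact add_le_add hind_sum hgeo_le

/-- The bound on the logarithm of the Lebowitz-Penrose series for one `n`. -/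
theorem lp5_pointwise (f : ℝ → ℝ) (μ d1 δ : ℝ) (hδ : 0 < δ) (hδ1 : δ ≤ 1)
    (hf0 : 0 ≤ f μ)
    (hf : ∀ u, 0 ≤ u → u ≤ δ → f (μ + u) ≤ f μ + d1 * u)
    (g Q : ℝ → ℝ) (M2 β : ℝ) (hM2 : 0 ≤ M2)
    (hQ : ∀ m, μ ≤ m → m ≤ μ + 1 → Q m ≤ M2) (hβ : 0 ≤ β)
    (hg : ∀ m, g m ≤ f m + β * Q m)
    (A C : ℝ) (hA : 672 ≤ A)
    (hgrow : ∀ m, g m ≤ 1 + (max (m + C) 0) ^ 2 / (4 * A))
    (L s : ℝ) (hL : 1 ≤ L) (hs : 0 < s) (hs21 : s ≤ 21)
    (hsδ : 16 * s * (8 + 4 * (|μ| + |C|) ^ 2 / A) ≤ δ ^ 2) :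
    Real.log (∑' j : ℕ, Real.exp (-s * (j : ℝ) ^ 2 / L ^ 3
        + (L + 1) ^ 3 * g (μ + 2 * s * (j : ℝ) / L ^ 3)))
      ≤ L ^ 3 * ((1 + L⁻¹) ^ 3 * (f μ + β * M2) + s * ((1 + L⁻¹) ^ 3) ^ 2 * d1 ^ 2)
        + Real.log (2 + 5 * L ^ 3 / s) := by
  have hL0 : 0 < L := by linarith
  have hT : 0 < L ^ 3 := by positivity
  have hE0 : 0 ≤ L ^ 3 * ((1 + L⁻¹) ^ 3 * (f μ + β * M2)
      + s * ((1 + L⁻¹) ^ 3) ^ 2 * d1 ^ 2) := by
    have h1 : 0 ≤ f μ + β * M2 := by positivity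
    positivity
  generalize hEdef : L ^ 3 * ((1 + L⁻¹) ^ 3 * (f μ + β * M2)
      + s * ((1 + L⁻¹) ^ 3) ^ 2 * d1 ^ 2) = E at hE0 ⊢
  have hK0 : 0 ≤ δ * L ^ 3 / (2 * s) := by positivity
  have hc0 : 0 < s / (4 * L ^ 3) := by positivity
  have hnear : ∀ j : ℕ, (j : ℝ) ≤ δ * L ^ 3 / (2 * s) →
      -s * (j : ℝ) ^ 2 / L ^ 3 + (L + 1) ^ 3 * g (μ + 2 * s * (j : ℝ) / L ^ 3) ≤ E := by
    intro j hj
    have hu : 2 * s * (j : ℝ) / L ^ 3 ≤ δ := by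
      rw [le_div_iff₀ (by positivity)] at hj
      rw [div_le_iff₀ hT]
      linarith
    have h := lp5_near f μ d1 δ hδ1 hf g Q M2 β hQ hβ hg L s hL hs j hu
    rw [hEdef] at h
    exact h
  have hfar : ∀ j : ℕ, δ * L ^ 3 / (2 * s) < (j : ℝ) →
      -s * (j : ℝ) ^ 2 / L ^ 3 + (L + 1) ^ 3 * g (μ + 2 * s * (j : ℝ) / L ^ 3)
        ≤ -(s / (4 * L ^ 3)) * (j : ℝ) := by
    intro j hj
    have hu : δ < 2 * s * (j : ℝ) / L ^ 3 := by
      rw [div_lt_iff₀ (by positivity)] at hj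
      rw [lt_div_iff₀ hT]
      linarith
    exact lp5_far μ δ hδ g A C hA hgrow L s hL hs hs21 hsδ j hu
  obtain ⟨hS, hle⟩ := lp5_sum (fun j : ℕ => -s * (j : ℝ) ^ 2 / L ^ 3
        + (L + 1) ^ 3 * g (μ + 2 * s * (j : ℝ) / L ^ 3)) (δ * L ^ 3 / (2 * s)) E
        (s / (4 * L ^ 3)) hK0 hc0 hnear hfar
  have hpos : 0 < ∑' j : ℕ, Real.exp (-s * (j : ℝ) ^ 2 / L ^ 3
      + (L + 1) ^ 3 * g (μ + 2 * s * (j : ℝ) / L ^ 3)) :=
    hS.tsum_pos (fun j => (Real.exp_pos _).le) 0 (Real.exp_pos _)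
  have hexp1 : 1 ≤ Real.exp E := Real.one_le_exp hE0
  have hbound : (δ * L ^ 3 / (2 * s) + 1) * Real.exp E + (1 + 1 / (s / (4 * L ^ 3)))
      ≤ (2 + 5 * L ^ 3 / s) * Real.exp E := by
    have h1 : δ * L ^ 3 / (2 * s) ≤ 1 / 2 * (L ^ 3 / s) := by
      have h2 : δ * L ^ 3 / (2 * s) = δ * (1 / 2 * (L ^ 3 / s)) := by
        field_simp
      rw [h2]
      have h3 : 0 ≤ 1 / 2 * (L ^ 3 / s) := by positivity
      nlinarith
    have h4 : 1 / (s / (4 * L ^ 3)) = 4 * (L ^ 3 / s) := by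
      field_simp
    have h5 : 0 ≤ L ^ 3 / s := by positivity
    have h6 : 5 * L ^ 3 / s = 5 * (L ^ 3 / s) := by ring
    rw [h4, h6]
    have h7 : 1 + 4 * (L ^ 3 / s) ≤ (1 + 4 * (L ^ 3 / s)) * Real.exp E := by
      have h8 : 0 ≤ 1 + 4 * (L ^ 3 / s) := by positivity
      nlinarith
    have h9 : (δ * L ^ 3 / (2 * s) + 1) * Real.exp E
        ≤ (1 / 2 * (L ^ 3 / s) + 1) * Real.exp E :=
      mul_le_mul_of_nonneg_right (by linarith) (Real.exp_pos _).le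
    have h10 : 0 ≤ L ^ 3 / s * Real.exp E := by positivity
    nlinarith
  have hpos2 : 0 < 2 + 5 * L ^ 3 / s := by positivity
  calc Real.log (∑' j : ℕ, Real.exp (-s * (j : ℝ) ^ 2 / L ^ 3
        + (L + 1) ^ 3 * g (μ + 2 * s * (j : ℝ) / L ^ 3)))
      ≤ Real.log ((2 + 5 * L ^ 3 / s) * Real.exp E) :=
        Real.log_le_log hpos (hle.trans hbound)
    _ = E + Real.log (2 + 5 * L ^ 3 / s) := by
        rw [Real.log_mul hpos2.ne' (Real.exp_pos _).ne', Real.log_exp]; ring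

theorem lp5_core
    (f : ℝ → ℝ) (μ d' : ℝ) (hd : HasDerivAt f d' μ) (hf0 : 0 ≤ f μ)
    (n1 : ℕ) (G : ℕ → ℝ → ℝ) (Q : ℝ → ℝ) (M2 : ℝ)
    (hQ0 : ∀ m, 0 ≤ Q m) (hQ : ∀ m, μ ≤ m → m ≤ μ + 1 → Q m ≤ M2)
    (b : ℕ → ℝ) (hb0 : ∀ n, 0 ≤ b n) (hb : Tendsto b atTop (𝓝 0))
    (hG : ∀ n, n1 ≤ n → ∀ m, G n m ≤ f m + b n * Q m)
    (A C : ℝ) (hA : 672 ≤ A)
    (hgrow : ∀ n, n1 ≤ n → ∀ m, G n m ≤ 1 + (max (m + C) 0) ^ 2 / (4 * A))
    (l : ℕ → ℝ) (hl1 : ∀ n, 1 ≤ l n) (hl : Tendsto l atTop atTop)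
    (τ : ℕ → ℝ) (hτ0 : ∀ n, 0 ≤ τ n) (hτ : Tendsto τ atTop (𝓝 0))
    (Φ : ℕ → ℝ → ℝ)
    (hclaim : ∀ n, n1 ≤ n → ∀ σ, 0 < σ →
      Φ n σ ≤ (l n) ^ (-3 : ℤ) * Real.log (∑' j : ℕ,
        Real.exp (-((21 / 2) * (σ + τ n)) * (j : ℝ) ^ 2 / (l n) ^ 3
          + (l n + 1) ^ 3 * G n (μ + 2 * ((21 / 2) * (σ + τ n)) * (j : ℝ) / (l n) ^ 3))))
    (ε : ℝ) (hε : 0 < ε) :
    ∃ σ : ℝ, 0 < σ ∧ ∃ n0 : ℕ, ∀ n : ℕ, n0 ≤ n →
      Φ n σ ≤ f μ + σ * ((21 / 2) * d' ^ 2 + ε) := by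
  have hM2 : 0 ≤ M2 := (hQ0 μ).trans (hQ μ le_rfl (by linarith))
  have hd0 : 0 < 21 * (2 * |d'| + 1) := by positivity
  obtain ⟨ε1, hε1, hε1le, hε1b⟩ :
      ∃ ε1 : ℝ, 0 < ε1 ∧ ε1 ≤ 1 ∧ 21 * (2 * |d'| + 1) * ε1 ≤ ε := by
    refine ⟨min 1 (ε / (21 * (2 * |d'| + 1))), lt_min one_pos (by positivity),
      min_le_left _ _, ?_⟩
    have h1 : min 1 (ε / (21 * (2 * |d'| + 1))) ≤ ε / (21 * (2 * |d'| + 1)) :=
      min_le_right _ _
    calc 21 * (2 * |d'| + 1) * min 1 (ε / (21 * (2 * |d'| + 1)))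
        ≤ 21 * (2 * |d'| + 1) * (ε / (21 * (2 * |d'| + 1))) :=
          mul_le_mul_of_nonneg_left h1 hd0.le
      _ = ε := by field_simp
  -- the one-sided bound from the derivative
  obtain ⟨δ, hδ, hδ1, hfδ⟩ : ∃ δ : ℝ, 0 < δ ∧ δ ≤ 1 ∧
      ∀ u, 0 ≤ u → u ≤ δ → f (μ + u) ≤ f μ + (d' + ε1) * u := by
    have h1 := (hasDerivAt_iff_isLittleO.1 hd).bound hε1
    obtain ⟨r, hr, hball⟩ := Metric.eventually_nhds_iff.1 h1
    refine ⟨min (r / 2) 1, lt_min (by linarith) one_pos, min_le_right _ _, ?_⟩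
    intro u hu0 hu
    have hur : u < r := by
      have h0 := min_le_left (r / 2) 1
      linarith
    have h2 := hball (y := μ + u) (by rw [Real.dist_eq]; simpa [abs_of_nonneg hu0] using hur)
    simp only [add_sub_cancel_left, smul_eq_mul, Real.norm_eq_abs, abs_of_nonneg hu0] at h2
    have h3 := le_abs_self (f (μ + u) - f μ - u * d')
    linarith
  -- the choice of sigma
  have hA0 : 0 < A := by linarith
  have hc0 : 0 < 8 + 4 * (|μ| + |C|) ^ 2 / A := by positivity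
  have hσ : 0 < min 1 (δ ^ 2 / (336 * (8 + 4 * (|μ| + |C|) ^ 2 / A))) :=
    lt_min one_pos (by positivity)
  have hσ1 : min 1 (δ ^ 2 / (336 * (8 + 4 * (|μ| + |C|) ^ 2 / A))) ≤ 1 := min_le_left _ _
  have hσδ : 336 * min 1 (δ ^ 2 / (336 * (8 + 4 * (|μ| + |C|) ^ 2 / A)))
      * (8 + 4 * (|μ| + |C|) ^ 2 / A) ≤ δ ^ 2 := by
    have h1 : min 1 (δ ^ 2 / (336 * (8 + 4 * (|μ| + |C|) ^ 2 / A)))
        ≤ δ ^ 2 / (336 * (8 + 4 * (|μ| + |C|) ^ 2 / A)) := min_le_right _ _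
    rw [le_div_iff₀ (by positivity)] at h1
    linarith
  generalize min 1 (δ ^ 2 / (336 * (8 + 4 * (|μ| + |C|) ^ 2 / A))) = σ at hσ hσ1 hσδ
  refine ⟨σ, hσ, ?_⟩
  -- the limit of the bound
  have hκ : Tendsto (fun n => (1 + (l n)⁻¹) ^ 3) atTop (𝓝 1) := by
    have h1 : Tendsto (fun n => (l n)⁻¹) atTop (𝓝 0) := tendsto_inv_atTop_zero.comp hl
    have h2 := ((tendsto_const_nhds (x := (1 : ℝ))).add h1).pow 3
    simpa using h2
  have hs : Tendsto (fun n => (21 / 2 : ℝ) * (σ + τ n)) atTop (𝓝 ((21 / 2) * σ)) := by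
    have h2 := ((tendsto_const_nhds (x := σ)).add hτ).const_mul (21 / 2 : ℝ)
    simpa using h2
  have hl3 : Tendsto (fun n => (l n) ^ 3) atTop atTop :=
    (tendsto_pow_atTop (by norm_num)).comp hl
  have hrem : Tendsto (fun n => ((l n) ^ 3)⁻¹ * Real.log (2 + (l n) ^ 3 / σ)) atTop (𝓝 0) := by
    have h1 := Real.tendsto_pow_log_div_mul_add_atTop σ (-(2 * σ)) 1 hσ.ne'
    have h2 : Tendsto (fun n => 2 + (l n) ^ 3 / σ) atTop atTop :=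
      tendsto_atTop_add_const_left atTop 2 (hl3.atTop_div_const hσ)
    have h3 := h1.comp h2
    refine h3.congr (fun n => ?_)
    simp only [Function.comp, pow_one]
    have h4 : σ * (2 + (l n) ^ 3 / σ) + -(2 * σ) = (l n) ^ 3 := by field_simp; ring
    rw [h4, div_eq_inv_mul]
  have hB : Tendsto (fun n => (1 + (l n)⁻¹) ^ 3 * (f μ + b n * M2)
      + (21 / 2 * (σ + τ n)) * ((1 + (l n)⁻¹) ^ 3) ^ 2 * (d' + ε1) ^ 2
      + ((l n) ^ 3)⁻¹ * Real.log (2 + (l n) ^ 3 / σ)) atTop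
      (𝓝 (f μ + (21 / 2) * σ * (d' + ε1) ^ 2)) := by
    have h1 := ((hκ.mul ((tendsto_const_nhds (x := f μ)).add (hb.mul_const M2))).add
      (((hs.mul (hκ.pow 2)).mul_const ((d' + ε1) ^ 2)))).add hrem
    simpa using h1
  have hlt : f μ + (21 / 2) * σ * (d' + ε1) ^ 2 < f μ + σ * ((21 / 2) * d' ^ 2 + ε) := by
    have h1 : d' * ε1 ≤ |d'| * ε1 := mul_le_mul_of_nonneg_right (le_abs_self d') hε1.le
    have h2 : ε1 ^ 2 ≤ ε1 := by nlinarith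
    have h3 : (21 / 2 : ℝ) * (d' + ε1) ^ 2 ≤ (21 / 2) * d' ^ 2 + ε / 2 := by nlinarith
    have h4 : σ * ((21 / 2 : ℝ) * (d' + ε1) ^ 2) ≤ σ * ((21 / 2) * d' ^ 2 + ε / 2) :=
      mul_le_mul_of_nonneg_left h3 hσ.le
    have h5 : σ * (ε / 2) < σ * ε := mul_lt_mul_of_pos_left (by linarith) hσ
    nlinarith
  have hev1 : ∀ᶠ n in atTop, n1 ≤ n := eventually_ge_atTop n1
  have hev2 : ∀ᶠ n in atTop, τ n < σ := (tendsto_order.1 hτ).2 σ hσ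
  have hev3 := (tendsto_order.1 hB).2 _ hlt
  obtain ⟨n0, hn0⟩ := eventually_atTop.1 (hev1.and (hev2.and hev3))
  refine ⟨n0, fun n hn => ?_⟩
  obtain ⟨hn1, hτn, hBn⟩ := hn0 n hn
  have hL := hl1 n
  have hL0 : 0 < l n := by linarith
  have hT : 0 < (l n) ^ 3 := by positivity
  have hτn0 := hτ0 n
  have hsn : 0 < (21 / 2 : ℝ) * (σ + τ n) := by positivity
  have hs21 : (21 / 2 : ℝ) * (σ + τ n) ≤ 21 := by linarith
  have hsδ : 16 * ((21 / 2 : ℝ) * (σ + τ n)) * (8 + 4 * (|μ| + |C|) ^ 2 / A) ≤ δ ^ 2 := by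
    have h2 : 16 * ((21 / 2 : ℝ) * (σ + τ n)) * (8 + 4 * (|μ| + |C|) ^ 2 / A)
        ≤ 16 * (21 * σ) * (8 + 4 * (|μ| + |C|) ^ 2 / A) := by
      apply mul_le_mul_of_nonneg_right _ hc0.le
      linarith
    linarith
  have hpt := lp5_pointwise f μ (d' + ε1) δ hδ hδ1 hf0 hfδ (G n) Q M2 (b n) hM2 hQ (hb0 n)
    (hG n hn1) A C hA (hgrow n hn1) (l n) ((21 / 2) * (σ + τ n)) hL hsn hs21 hsδ
  have hcl := hclaim n hn1 σ hσ
  have hz : (l n) ^ (-3 : ℤ) = ((l n) ^ 3)⁻¹ := by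
    rw [zpow_neg]; norm_cast
  rw [hz] at hcl
  have hlog : Real.log (2 + 5 * (l n) ^ 3 / ((21 / 2) * (σ + τ n)))
      ≤ Real.log (2 + (l n) ^ 3 / σ) := by
    apply Real.log_le_log (by positivity)
    have h1 : 5 * (l n) ^ 3 / ((21 / 2) * (σ + τ n)) ≤ (l n) ^ 3 / σ := by
      rw [div_le_div_iff₀ hsn hσ]
      nlinarith
    linarith
  have h1 := mul_le_mul_of_nonneg_left (hpt.trans (add_le_add_right hlog _))
    (inv_nonneg.2 hT.le)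
  have h2 : ∀ X Y : ℝ, ((l n) ^ 3)⁻¹ * ((l n) ^ 3 * X + Y) = X + ((l n) ^ 3)⁻¹ * Y := by
    intro X Y
    rw [mul_add, inv_mul_cancel_left₀ hT.ne']
  rw [h2] at h1
  linarith

end Vale.Agent.Lead.P171
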